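import Vale.Agent.P084.General
import Vale.Agent.P084.LowDim

/-!
# P084: every real normed space of finite dimension different from two has the Mazur-Ulam property
-/

namespace Vale.Agent.Results.P084.MazurUlam

open Metric

/-- The map `f` between the unit spheres of `X` and `Y` extends linearly: it is the restriction of
a linear isometry of `X` onto `Y`. -/
def ExtendsLinearly {X Y : Type*} [NormedAddCommGroup X] [NormedSpace ℝ X]
    [NormedAddCommGroup Y] [NormedSpace ℝ Y] (f : sphere (0 : X) 1 → sphere (0 : Y) 1) : Prop :=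
  ∃ T : X ≃ₗᵢ[ℝ] Y, ∀ x : sphere (0 : X) 1, T (x : X) = (f x : Y)

/-- The Mazur-Ulam property of `X`, tested against all real normed spaces `Y` (complete or not). -/
def MazurUlamProperty.{u, v} (X : Type u) [NormedAddCommGroup X] [NormedSpace ℝ X] : Prop :=
  ∀ (Y : Type v) [NormedAddCommGroup Y] [NormedSpace ℝ Y]
    (f : sphere (0 : X) 1 → sphere (0 : Y) 1),
    Isometry f → Function.Surjective f → ExtendsLinearly f

/-- Finite-dimensional spaces of dimension different from two have the Mazur-Ulam property, and so
does every surjective isometry of unit spheres extend linearly when one of the two spaces has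
finite dimension different from two. -/
theorem result.{u, v} :
    (∀ (X : Type u) [NormedAddCommGroup X] [NormedSpace ℝ X] [FiniteDimensional ℝ X],
      Module.finrank ℝ X ≠ 2 → MazurUlamProperty.{u, v} X) ∧
    ∀ (X : Type u) (Y : Type v) [NormedAddCommGroup X] [NormedSpace ℝ X]
      [NormedAddCommGroup Y] [NormedSpace ℝ Y],
      (FiniteDimensional ℝ X ∧ Module.finrank ℝ X ≠ 2) ∨
        (FiniteDimensional ℝ Y ∧ Module.finrank ℝ Y ≠ 2) →
      ∀ f : sphere (0 : X) 1 → sphere (0 : Y) 1,
        Isometry f → Function.Surjective f → ExtendsLinearly f := by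
  have main : ∀ (X : Type u) (Y : Type v) [NormedAddCommGroup X] [NormedSpace ℝ X]
      [NormedAddCommGroup Y] [NormedSpace ℝ Y] [FiniteDimensional ℝ X],
      Module.finrank ℝ X ≠ 2 → ∀ f : sphere (0 : X) 1 → sphere (0 : Y) 1,
        Isometry f → Function.Surjective f → ExtendsLinearly f := by
    intro X Y _ _ _ _ _ hd f hf hs
    rcases Nat.lt_or_ge 2 (Module.finrank ℝ X) with h | h
    · exact Vale.P084.general_tingley h f hf hs
    · have h2 : Module.finrank ℝ X = 0 ∨ Module.finrank ℝ X = 1 := by omega
      rcases h2 with h2 | h2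
      · have : Subsingleton X := Module.finrank_zero_iff.1 h2
        exact Vale.P084.dim_zero f hs
      · exact Vale.P084.dim_one h2 f hs
  have main' : ∀ (X : Type v) (Y : Type u) [NormedAddCommGroup X] [NormedSpace ℝ X]
      [NormedAddCommGroup Y] [NormedSpace ℝ Y] [FiniteDimensional ℝ X],
      Module.finrank ℝ X ≠ 2 → ∀ f : sphere (0 : X) 1 → sphere (0 : Y) 1,
        Isometry f → Function.Surjective f → ExtendsLinearly f := by
    intro X Y _ _ _ _ _ hd f hf hs
    rcases Nat.lt_or_ge 2 (Module.finrank ℝ X) with h | h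
    · exact Vale.P084.general_tingley h f hf hs
    · have h2 : Module.finrank ℝ X = 0 ∨ Module.finrank ℝ X = 1 := by omega
      rcases h2 with h2 | h2
      · have : Subsingleton X := Module.finrank_zero_iff.1 h2
        exact Vale.P084.dim_zero f hs
      · exact Vale.P084.dim_one h2 f hs
  refine ⟨fun X _ _ _ hd Y _ _ f hf hs => main X Y hd f hf hs, ?_⟩
  intro X Y _ _ _ _ h f hf hs
  rcases h with ⟨h1, h2⟩ | ⟨h1, h2⟩
  · exact main X Y h2 f hf hs
  · let e : sphere (0 : X) 1 ≃ᵢ sphere (0 : Y) 1 :=
      { Equiv.ofBijective f ⟨hf.injective, hs⟩ with isometry_toFun := hf }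
    obtain ⟨T, hT⟩ := main' Y X h2 e.symm e.symm.isometry e.symm.surjective
    refine ⟨T.symm, fun x => ?_⟩
    rw [LinearIsometryEquiv.symm_apply_eq]
    have h3 := hT (f x)
    have h4 : e.symm (f x) = x := e.symm_apply_apply x
    rw [h4] at h3
    exact h3.symm

end Vale.Agent.Results.P084.MazurUlam
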