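import Vale.Agent.P084.Final

/-!
# P084: surjective isometries between the unit spheres of smooth rotund spaces of finite
dimension at least three extend linearly
-/

namespace Vale.Agent.Results.P084.SmoothRotundC3

open Metric Vale.P084

/-- Every surjective isometry between the unit spheres of two smooth rotund finite-dimensional
real normed spaces, of dimension at least three, extends to a linear isometry. -/
theorem result (X Y : Type*) [NormedAddCommGroup X] [NormedSpace ℝ X] [FiniteDimensional ℝ X]
    [NormedAddCommGroup Y] [NormedSpace ℝ Y] [FiniteDimensional ℝ Y]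
    (hX : SmoothRotund X) (hY : SmoothRotund Y) (hdim : 3 ≤ Module.finrank ℝ X)
    (f : sphere (0 : X) 1 → sphere (0 : Y) 1) (hf : Isometry f) (hs : Function.Surjective f) :
    ∃ T : X ≃ₗᵢ[ℝ] Y, ∀ x : sphere (0 : X) 1, T x = f x :=
  tingley hX hY hdim f hf hs

end Vale.Agent.Results.P084.SmoothRotundC3
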