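import Vale.Agent.P084.Assemble

/-!
# P084: every strictly convex real normed space of finite dimension at least three has the
Mazur-Ulam property
-/

namespace Vale.Agent.Results.P084.StrictConvex

open Metric

/-- Every surjective isometry from the unit sphere of a strictly convex real normed space of finite
dimension at least three onto the unit sphere of a real normed space extends to a linear isometry. -/
theorem result (X Y : Type*) [NormedAddCommGroup X] [NormedSpace ℝ X] [FiniteDimensional ℝ X]
    [StrictConvexSpace ℝ X] [NormedAddCommGroup Y] [NormedSpace ℝ Y]
    (hdim : 3 ≤ Module.finrank ℝ X)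
    (f : sphere (0 : X) 1 → sphere (0 : Y) 1) (hf : Isometry f) (hs : Function.Surjective f) :
    ∃ T : X ≃ₗᵢ[ℝ] Y, ∀ x : sphere (0 : X) 1, T x = f x :=
  Vale.P084.strict_tingley hdim f hf hs

end Vale.Agent.Results.P084.StrictConvex
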